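import Mathlib

/-!
# P127: sets of unit segments whose position depends contractively on the direction

If a set `K` of a real Hilbert space contains, for every unit vector `e`, the segment
`{b e + t • e : 0 ≤ t ≤ T}` and `b` is Lipschitz on the unit sphere with a constant `L < T`,
then `K` contains a nonempty open set.  The proof: on the open shell `L' < ‖x‖ < T` the map
`x ↦ x + b (x / ‖x‖)` is a Lipschitz-small perturbation of the identity, so its image is open.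
-/

open Metric Set
open scoped NNReal

namespace Vale.Agent.Lib.P127

variable {E : Type*} [NormedAddCommGroup E] [InnerProductSpace ℝ E]

/-- Radial projection to the unit sphere is `1/r`-Lipschitz outside the ball of radius `r`. -/
theorem norm_normalize_sub_le {x y : E} {r : ℝ} (hr : 0 < r) (hx : r ≤ ‖x‖) (hy : r ≤ ‖y‖) :
    ‖‖x‖⁻¹ • x - ‖y‖⁻¹ • y‖ ≤ ‖x - y‖ / r := by
  have hp : 0 < ‖x‖ := lt_of_lt_of_le hr hx
  have hq : 0 < ‖y‖ := lt_of_lt_of_le hr hy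
  rw [le_div_iff₀ hr]
  have key : (‖‖x‖⁻¹ • x - ‖y‖⁻¹ • y‖ * r) ^ 2 ≤ ‖x - y‖ ^ 2 := by
    have h1 : ‖‖x‖⁻¹ • x - ‖y‖⁻¹ • y‖ ^ 2 * (‖x‖ * ‖y‖)
        = 2 * (‖x‖ * ‖y‖) - 2 * inner ℝ x y := by
      rw [norm_sub_sq_real]
      simp only [norm_smul, norm_inv, norm_norm, real_inner_smul_left, real_inner_smul_right]
      field_simp
      ring
    have h2 : ‖x - y‖ ^ 2 = ‖x‖ ^ 2 + ‖y‖ ^ 2 - 2 * inner ℝ x y := by
      rw [norm_sub_sq_real]; ring
    have h3 : r ^ 2 ≤ ‖x‖ * ‖y‖ := by nlinarith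
    have h4 : 0 ≤ ‖‖x‖⁻¹ • x - ‖y‖⁻¹ • y‖ ^ 2 := by positivity
    calc (‖‖x‖⁻¹ • x - ‖y‖⁻¹ • y‖ * r) ^ 2
        = ‖‖x‖⁻¹ • x - ‖y‖⁻¹ • y‖ ^ 2 * r ^ 2 := by ring
      _ ≤ ‖‖x‖⁻¹ • x - ‖y‖⁻¹ • y‖ ^ 2 * (‖x‖ * ‖y‖) := by
          exact mul_le_mul_of_nonneg_left h3 h4
      _ = 2 * (‖x‖ * ‖y‖) - 2 * inner ℝ x y := h1
      _ ≤ ‖x - y‖ ^ 2 := by rw [h2]; nlinarith [sq_nonneg (‖x‖ - ‖y‖)]
  exact le_of_sq_le_sq key (norm_nonneg _)

/-- **Core lemma.**  Let `b` be `L`-Lipschitz on the unit sphere with `L < T`, and let `K` contain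
the segment `{b e + t • e : 0 ≤ t ≤ T}` for every unit vector `e`.  Then `K` has nonempty
interior (provided the space has a unit vector at all). -/
theorem interior_nonempty_of_contractive [CompleteSpace E] (he : ∃ e : E, ‖e‖ = 1)
    (K : Set E) (b : E → E) (T L : ℝ) (hLT : L < T)
    (hK : ∀ e : E, ‖e‖ = 1 → ∀ t : ℝ, 0 ≤ t → t ≤ T → b e + t • e ∈ K)
    (hb : ∀ e e' : E, ‖e‖ = 1 → ‖e'‖ = 1 → ‖b e - b e'‖ ≤ L * ‖e - e'‖) :
    (interior K).Nonempty := by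
  obtain ⟨e₀, he₀⟩ := he
  have hne : e₀ ≠ 0 := by
    intro h; rw [h, norm_zero] at he₀; exact zero_ne_one he₀
  have : Nontrivial E := ⟨⟨e₀, 0, hne⟩⟩
  -- the Lipschitz constant is nonnegative
  have hL0 : 0 ≤ L := by
    have h := hb e₀ (-e₀) he₀ (by rw [norm_neg]; exact he₀)
    have h2 : ‖e₀ - -e₀‖ = 2 := by
      rw [sub_neg_eq_add, ← two_smul ℝ e₀, norm_smul, he₀]; norm_num
    rw [h2] at h
    have := norm_nonneg (b e₀ - b (-e₀))
    linarith
  set r : ℝ := (L + T) / 2 with hr_def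
  have hLr : L < r := by rw [hr_def]; linarith
  have hrT : r < T := by rw [hr_def]; linarith
  have hr0 : 0 < r := lt_of_le_of_lt hL0 hLr
  set S : Set E := {x : E | r < ‖x‖ ∧ ‖x‖ < T} with hS_def
  have hSo : IsOpen S := by
    have h1 : IsOpen {x : E | r < ‖x‖} := isOpen_lt continuous_const continuous_norm
    have h2 : IsOpen {x : E | ‖x‖ < T} := isOpen_lt continuous_norm continuous_const
    exact h1.inter h2
  have hSne : S.Nonempty := by
    refine ⟨((r + T) / 2) • e₀, ?_, ?_⟩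
    · rw [norm_smul, he₀, mul_one, Real.norm_eq_abs, abs_of_pos (by linarith)]; linarith
    · rw [norm_smul, he₀, mul_one, Real.norm_eq_abs, abs_of_pos (by linarith)]; linarith
  set Ψ : E → E := fun x => x + b (‖x‖⁻¹ • x) with hΨ_def
  have hq0 : 0 ≤ L / r := div_nonneg hL0 hr0.le
  have hq1 : L / r < 1 := by rw [div_lt_one hr0]; exact hLr
  have happ : ApproximatesLinearOn Ψ ((ContinuousLinearEquiv.refl ℝ E : E ≃L[ℝ] E) : E →L[ℝ] E) S
      ⟨L / r, hq0⟩ := by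
    intro x hx y hy
    have hxn : ‖‖x‖⁻¹ • x‖ = 1 := by
      rw [norm_smul, norm_inv, norm_norm]; exact inv_mul_cancel₀ (by linarith [hx.1])
    have hyn : ‖‖y‖⁻¹ • y‖ = 1 := by
      rw [norm_smul, norm_inv, norm_norm]; exact inv_mul_cancel₀ (by linarith [hy.1])
    have h1 := hb _ _ hxn hyn
    have h2 := norm_normalize_sub_le hr0 hx.1.le hy.1.le
    have h3 : Ψ x - Ψ y - ((ContinuousLinearEquiv.refl ℝ E : E ≃L[ℝ] E) : E →L[ℝ] E) (x - y)
        = b (‖x‖⁻¹ • x) - b (‖y‖⁻¹ • y) := by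
      simp only [hΨ_def, ContinuousLinearEquiv.coe_refl, ContinuousLinearMap.coe_id', id_eq]
      abel
    rw [h3]
    calc ‖b (‖x‖⁻¹ • x) - b (‖y‖⁻¹ • y)‖ ≤ L * ‖‖x‖⁻¹ • x - ‖y‖⁻¹ • y‖ := h1
      _ ≤ L * (‖x - y‖ / r) := mul_le_mul_of_nonneg_left h2 hL0
      _ = ((⟨L / r, hq0⟩ : ℝ≥0) : ℝ) * ‖x - y‖ := by
          show L * (‖x - y‖ / r) = L / r * ‖x - y‖
          field_simp
  have hopen : IsOpen (Ψ '' S) := by
    refine happ.open_image (ContinuousLinearEquiv.refl ℝ E).toNonlinearRightInverse hSo (Or.inr ?_)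
    have hnn : (ContinuousLinearEquiv.refl ℝ E).toNonlinearRightInverse.nnnorm = 1 := by
      have : (ContinuousLinearEquiv.refl ℝ E).toNonlinearRightInverse.nnnorm
          = ‖(((ContinuousLinearEquiv.refl ℝ E).symm : E ≃L[ℝ] E) : E →L[ℝ] E)‖₊ := rfl
      rw [this]
      have h : (((ContinuousLinearEquiv.refl ℝ E).symm : E ≃L[ℝ] E) : E →L[ℝ] E)
          = ContinuousLinearMap.id ℝ E := rfl
      rw [h]
      apply NNReal.eq
      simp
    rw [hnn, inv_one]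
    exact_mod_cast hq1
  have hsub : Ψ '' S ⊆ K := by
    rintro _ ⟨x, hx, rfl⟩
    have hxpos : 0 < ‖x‖ := by linarith [hx.1]
    have hxn : ‖‖x‖⁻¹ • x‖ = 1 := by
      rw [norm_smul, norm_inv, norm_norm]; exact inv_mul_cancel₀ hxpos.ne'
    have h := hK _ hxn ‖x‖ (norm_nonneg x) hx.2.le
    have h2 : ‖x‖ • ‖x‖⁻¹ • x = x := by
      rw [smul_smul, mul_inv_cancel₀ hxpos.ne', one_smul]
    rw [h2] at h
    simp only [hΨ_def]
    rw [add_comm]; exact h
  exact (hSne.image Ψ).mono (interior_maximal hsub hopen)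

end Vale.Agent.Lib.P127
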