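import Mathlib
import Vale.Agent.Lib.P127.Contractive

/-!
# P127: sets of unit segments whose position is Lipschitz near one direction

If a set `K` of a finite-dimensional real inner product space contains the unit segment
`{a e + t • e : 0 ≤ t ≤ 1}` for every unit vector `e` close to a unit vector `e₀`, and `a` is
Lipschitz (with any constant) on the unit vectors close to `e₀`, then `K` is not a null set for
any additive Haar measure.

Proof.  `G y = a (y / ‖y‖)` is Lipschitz on an open piece `U` of the shell `1/2 < ‖y‖ < 1`, hence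
differentiable almost everywhere in `U` (Rademacher).  At such a point `y` the map
`y ↦ G y + t • y` has derivative `G'(y) + t`, which is invertible unless `-t` is an eigenvalue of
`G'(y)`; so for each `y` all but finitely many of the parameters `t = 1 / (k + 2)` are good, and
for one `k` the good points form a non-null set `D`.  A map which is differentiable with
invertible derivative at every point of a non-null set has a non-null image, and the image of
`D` lies in `K`.
-/

open MeasureTheory Metric Set Filter Topology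
open scoped NNReal ENNReal

namespace Vale.Agent.Lib.P127

section image

variable {E : Type*} [NormedAddCommGroup E] [NormedSpace ℝ E] [FiniteDimensional ℝ E]
  [MeasurableSpace E] [BorelSpace E] (μ : Measure E) [μ.IsAddHaarMeasure]

/-- A map that is differentiable with invertible derivative at every point of a non-null set
has a non-null image. -/
theorem measure_image_ne_zero_of_det_ne_zero (f : E → E) (s : Set E) (f' : E → E →L[ℝ] E)
    (hf : ∀ x ∈ s, HasFDerivWithinAt f (f' x) s x) (hdet : ∀ x ∈ s, (f' x).det ≠ 0)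
    (hs : μ s ≠ 0) : μ (f '' s) ≠ 0 := by
  classical
  have key : ∀ A : E →L[ℝ] E, ∃ δ : ℝ≥0, δ ≠ 0 ∧ (A.det ≠ 0 → ∃ m : ℝ≥0, m ≠ 0 ∧
      ∀ (t : Set E) (g : E → E), ApproximatesLinearOn g A t δ →
        (m : ℝ≥0∞) * μ t ≤ μ (g '' t)) := by
    intro A
    by_cases hA : A.det = 0
    · exact ⟨1, one_ne_zero, fun h => absurd hA h⟩
    · have hmpos : 0 < |A.det| / 2 := by positivity
      have hm' : ((Real.toNNReal (|A.det| / 2) : ℝ≥0) : ℝ≥0∞) < ENNReal.ofReal |A.det| := by
        show ENNReal.ofReal (|A.det| / 2) < ENNReal.ofReal |A.det|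
        exact (ENNReal.ofReal_lt_ofReal_iff (abs_pos.2 hA)).2 (by linarith [abs_pos.2 hA])
      have h := mul_le_addHaar_image_of_lt_det μ A hm'
      obtain ⟨δ, hδ, hδpos⟩ := (h.and self_mem_nhdsWithin).exists
      exact ⟨δ, ne_of_gt hδpos, fun _ => ⟨_, (Real.toNNReal_pos.2 hmpos).ne', hδ⟩⟩
  choose r hr0 hr using key
  obtain ⟨t, A, -, hcov, happ, hA⟩ :=
    exists_closed_cover_approximatesLinearOn_of_hasFDerivWithinAt f s f' hf r hr0
  have hsne : s.Nonempty := by
    by_contra h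
    rw [Set.not_nonempty_iff_eq_empty] at h
    rw [h, measure_empty] at hs
    exact hs rfl
  obtain ⟨n, hn⟩ : ∃ n, μ (s ∩ t n) ≠ 0 := by
    by_contra hcon
    apply hs
    have hsub : s ⊆ ⋃ n, s ∩ t n := by
      intro x hx
      obtain ⟨n, hn⟩ := mem_iUnion.1 (hcov hx)
      exact mem_iUnion.2 ⟨n, hx, hn⟩
    refine measure_mono_null hsub (measure_iUnion_null ?_)
    intro n
    by_contra h
    exact hcon ⟨n, h⟩
  obtain ⟨y, hy, hAy⟩ := hA hsne n
  obtain ⟨m, hm0, hm⟩ := hr (A n) (by rw [hAy]; exact hdet y hy)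
  have h1 := hm (s ∩ t n) f (happ n)
  intro h0
  have h2 : μ (f '' (s ∩ t n)) = 0 := measure_mono_null (image_mono inter_subset_left) h0
  rw [h2] at h1
  have h3 : (m : ℝ≥0∞) * μ (s ∩ t n) ≠ 0 := mul_ne_zero (by exact_mod_cast hm0) hn
  exact h3 (nonpos_iff_eq_zero.1 h1)

end image

section main

variable {E : Type*} [NormedAddCommGroup E] [InnerProductSpace ℝ E] [FiniteDimensional ℝ E]
  [MeasurableSpace E] [BorelSpace E] (μ : Measure E) [μ.IsAddHaarMeasure]

/-- **Main lemma.**  If `K` contains the unit segments `a e + [0, 1] • e` for the unit vectors `e`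
at distance less than `ρ` from the unit vector `e₀`, and `a` is Lipschitz on these unit vectors,
then `K` is not a null set. -/
theorem measure_ne_zero_of_lipschitz (K : Set E) (a : E → E)
    (e₀ : E) (he₀ : ‖e₀‖ = 1) (ρ : ℝ) (hρ : 0 < ρ)
    (hK : ∀ e : E, ‖e‖ = 1 → ‖e - e₀‖ < ρ → ∀ t : ℝ, 0 ≤ t → t ≤ 1 → a e + t • e ∈ K)
    (L : ℝ)
    (ha : ∀ e e' : E, ‖e‖ = 1 → ‖e'‖ = 1 → ‖e - e₀‖ < ρ → ‖e' - e₀‖ < ρ →
      ‖a e - a e'‖ ≤ L * ‖e - e'‖) :
    μ K ≠ 0 := by
  classical
  set N : E → E := fun y => ‖y‖⁻¹ • y with hN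
  set G : E → E := fun y => a (N y) with hG
  set U : Set E := {y : E | 1 / 2 < ‖y‖ ∧ ‖y‖ < 1 ∧ ‖y - ‖y‖ • e₀‖ < ρ * ‖y‖} with hU
  have hUo : IsOpen U := by
    have h1 : IsOpen {y : E | (1 / 2 : ℝ) < ‖y‖} := isOpen_lt continuous_const continuous_norm
    have h2 : IsOpen {y : E | ‖y‖ < 1} := isOpen_lt continuous_norm continuous_const
    have h3 : IsOpen {y : E | ‖y - ‖y‖ • e₀‖ < ρ * ‖y‖} :=
      isOpen_lt (by fun_prop) (by fun_prop)
    exact h1.inter (h2.inter h3)
  have hUne : U.Nonempty := by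
    have h34 : ‖(3 / 4 : ℝ) • e₀‖ = 3 / 4 := by rw [norm_smul, he₀]; norm_num
    refine ⟨(3 / 4 : ℝ) • e₀, ?_, ?_, ?_⟩
    · rw [h34]; norm_num
    · rw [h34]; norm_num
    · rw [h34, sub_self, norm_zero]
      positivity
  have hUμ : μ U ≠ 0 := (hUo.measure_pos μ hUne).ne'
  have hUN : ∀ y ∈ U, ‖N y‖ = 1 ∧ ‖N y - e₀‖ < ρ := by
    intro y hy
    have hypos : 0 < ‖y‖ := by linarith [hy.1]
    refine ⟨?_, ?_⟩
    · simp only [hN]
      rw [norm_smul, norm_inv, norm_norm]; exact inv_mul_cancel₀ hypos.ne'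
    · have h1 : N y - e₀ = ‖y‖⁻¹ • (y - ‖y‖ • e₀) := by
        simp only [hN]; rw [smul_sub, smul_smul, inv_mul_cancel₀ hypos.ne', one_smul]
      rw [h1, norm_smul, norm_inv, norm_norm, inv_mul_lt_iff₀ hypos, mul_comm]
      exact hy.2.2
  have hLip : LipschitzOnWith (Real.toNNReal (2 * max L 0)) G U := by
    apply LipschitzOnWith.of_dist_le_mul
    intro y hy y' hy'
    rw [dist_eq_norm, dist_eq_norm]
    obtain ⟨h1, h2⟩ := hUN y hy
    obtain ⟨h1', h2'⟩ := hUN y' hy'
    have h3 := ha (N y) (N y') h1 h1' h2 h2'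
    have h4 : ‖N y - N y'‖ ≤ ‖y - y'‖ / (1 / 2) :=
      norm_normalize_sub_le (by norm_num) hy.1.le hy'.1.le
    have h5 : (0 : ℝ) ≤ max L 0 := le_max_right _ _
    rw [Real.coe_toNNReal _ (by positivity)]
    calc ‖a (N y) - a (N y')‖ ≤ L * ‖N y - N y'‖ := h3
      _ ≤ max L 0 * ‖N y - N y'‖ :=
          mul_le_mul_of_nonneg_right (le_max_left _ _) (norm_nonneg _)
      _ ≤ max L 0 * (‖y - y'‖ / (1 / 2)) := mul_le_mul_of_nonneg_left h4 h5
      _ = 2 * max L 0 * ‖y - y'‖ := by ring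
  have hae := hLip.ae_differentiableWithinAt_of_mem (μ := μ)
  set D : Set E := {y : E | y ∈ U ∧ DifferentiableAt ℝ G y} with hD
  have hDμ : μ D ≠ 0 := by
    intro h0
    apply hUμ
    have hsub : U ⊆ D ∪ {y : E | ¬ (y ∈ U → DifferentiableWithinAt ℝ G U y)} := by
      intro y hy
      by_cases h : DifferentiableWithinAt ℝ G U y
      · left; exact ⟨hy, h.differentiableAt (hUo.mem_nhds hy)⟩
      · right; intro h'; exact h (h' hy)
    exact measure_mono_null hsub (measure_union_null h0 (ae_iff.1 hae))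
  set τ : ℕ → ℝ := fun k => 1 / ((k : ℝ) + 2) with hτ
  have hτpos : ∀ k, 0 < τ k := fun k => by simp only [hτ]; positivity
  have hτle : ∀ k, τ k ≤ 1 / 2 := fun k => by
    simp only [hτ]
    apply one_div_le_one_div_of_le (by norm_num)
    linarith [(Nat.cast_nonneg k : (0 : ℝ) ≤ k)]
  have hτinj : Function.Injective (fun k : ℕ => -τ k) := by
    intro k k' h
    simp only [hτ, neg_inj] at h
    have h' : (k : ℝ) + 2 = (k' : ℝ) + 2 := by
      have hk : ((k : ℝ) + 2) ≠ 0 := by positivity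
      have hk' : ((k' : ℝ) + 2) ≠ 0 := by positivity
      field_simp at h
      linarith
    exact_mod_cast add_right_cancel h'
  set Dk : ℕ → Set E := fun k => {y : E | y ∈ D ∧
    ¬ Module.End.HasEigenvalue ((fderiv ℝ G y : E →L[ℝ] E) : E →ₗ[ℝ] E) (-τ k)} with hDk
  have hcov : D ⊆ ⋃ k, Dk k := by
    intro y hy
    by_contra hcon
    have hall : ∀ k : ℕ, -τ k ∈ {ν : ℝ |
        Module.End.HasEigenvalue ((fderiv ℝ G y : E →L[ℝ] E) : E →ₗ[ℝ] E) ν} := by
      intro k
      by_contra h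
      exact hcon (mem_iUnion.2 ⟨k, hy, h⟩)
    exact (Set.infinite_of_injective_forall_mem hτinj hall) (Module.End.finite_hasEigenvalue _)
  obtain ⟨k, hk⟩ : ∃ k, μ (Dk k) ≠ 0 := by
    by_contra hcon
    apply hDμ
    refine measure_mono_null hcov (measure_iUnion_null ?_)
    intro k
    by_contra h
    exact hcon ⟨k, h⟩
  set Ψ : E → E := fun y => G y + τ k • y with hΨ
  have himg : μ (Ψ '' Dk k) ≠ 0 := by
    refine measure_image_ne_zero_of_det_ne_zero μ Ψ (Dk k)
      (fun y => fderiv ℝ G y + τ k • ContinuousLinearMap.id ℝ E) ?_ ?_ hk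
    · intro y hy
      exact (hy.1.2.hasFDerivAt.add ((hasFDerivAt_id y).const_smul (τ k))).hasFDerivWithinAt
    · intro y hy hdet
      apply hy.2
      have hker : LinearMap.ker ((fderiv ℝ G y + τ k • ContinuousLinearMap.id ℝ E : E →L[ℝ] E) :
          E →ₗ[ℝ] E) ≠ ⊥ := LinearMap.det_eq_zero_iff_ker_ne_bot.1 hdet
      obtain ⟨x, hx, hx0⟩ := Submodule.exists_mem_ne_zero_of_ne_bot hker
      refine Module.End.hasEigenvalue_of_hasEigenvector (x := x) ⟨?_, hx0⟩
      rw [Module.End.mem_eigenspace_iff]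
      have h1 : fderiv ℝ G y x + τ k • x = 0 := by simpa using hx
      show fderiv ℝ G y x = (-τ k) • x
      rw [neg_smul]; exact eq_neg_of_add_eq_zero_left h1
  have hsub : Ψ '' Dk k ⊆ K := by
    rintro _ ⟨y, hy, rfl⟩
    have hyU : y ∈ U := hy.1.1
    have hypos : 0 < ‖y‖ := by linarith [hyU.1]
    obtain ⟨h1, h2⟩ := hUN y hyU
    have hle : τ k * ‖y‖ ≤ 1 := by nlinarith [hτle k, hτpos k, hyU.2.1]
    have h := hK (N y) h1 h2 (τ k * ‖y‖) (mul_nonneg (hτpos k).le hypos.le) hle
    have h3 : (τ k * ‖y‖) • N y = τ k • y := by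
      simp only [hN]; rw [smul_smul, mul_assoc, mul_inv_cancel₀ hypos.ne', mul_one]
    rw [h3] at h
    exact h
  exact fun h0 => himg (measure_mono_null hsub h0)

end main

end Vale.Agent.Lib.P127
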