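import Mathlib

/-!
# P127: sets of unit segments whose position is continuously differentiable near one direction

If a set `K` of a finite-dimensional real inner product space contains the unit segment
`{a e + t • e : 0 ≤ t ≤ 1}` for every unit vector `e`, and `a` is continuously differentiable
near one unit vector `e₀`, then `K` has nonempty interior.  Proof: with `G y = a (y / ‖y‖)` the
map `y ↦ G y + t • y` sends a neighbourhood of `e₀` into `K`; its derivative at `e₀` is
`G'(e₀) + t`, which is invertible for all but finitely many `t`, and the inverse function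
theorem applies.
-/

open Metric Set Filter Topology

namespace Vale.Agent.Lib.P127

variable {E : Type*} [NormedAddCommGroup E] [InnerProductSpace ℝ E] [FiniteDimensional ℝ E]

theorem interior_nonempty_of_contDiffAt (K : Set E) (a : E → E)
    (hK : ∀ e : E, ‖e‖ = 1 → ∀ t : ℝ, 0 ≤ t → t ≤ 1 → a e + t • e ∈ K)
    (e₀ : E) (he₀ : ‖e₀‖ = 1) (ha : ContDiffAt ℝ 1 a e₀) :
    (interior K).Nonempty := by
  have hne : e₀ ≠ 0 := by
    intro h; rw [h, norm_zero] at he₀; exact zero_ne_one he₀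
  set N : E → E := fun y => ‖y‖⁻¹ • y with hN
  have hN0 : N e₀ = e₀ := by simp [hN, he₀]
  have hNc : ContDiffAt ℝ 1 N e₀ := by
    have h1 : ContDiffAt ℝ 1 (fun y : E => ‖y‖) e₀ := contDiffAt_norm ℝ hne
    have h2 : ContDiffAt ℝ 1 (fun y : E => ‖y‖⁻¹) e₀ :=
      h1.inv (by rw [he₀]; exact one_ne_zero)
    exact h2.smul contDiffAt_id
  have hGc : ContDiffAt ℝ 1 (a ∘ N) e₀ := by
    have ha' : ContDiffAt ℝ 1 a (N e₀) := by rw [hN0]; exact ha
    exact ha'.comp e₀ hNc
  set B : E →L[ℝ] E := fderiv ℝ (a ∘ N) e₀ with hB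
  have hG : HasStrictFDerivAt (a ∘ N) B e₀ := hGc.hasStrictFDerivAt (by norm_num)
  -- a parameter `t ∈ (0, 1)` such that `-t` is not an eigenvalue of `B`
  have hfin : Set.Finite {μ : ℝ | Module.End.HasEigenvalue (B : E →ₗ[ℝ] E) μ} :=
    Module.End.finite_hasEigenvalue _
  obtain ⟨μ, hμ1, hμ2⟩ :
      ∃ μ ∈ Set.Ioo (-1 : ℝ) 0, ¬ Module.End.HasEigenvalue (B : E →ₗ[ℝ] E) μ := by
    by_contra hcon
    refine (Set.Ioo_infinite (by norm_num : (-1 : ℝ) < 0)) (hfin.subset ?_)
    intro ν hν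
    by_contra h
    exact hcon ⟨ν, hν, h⟩
  set t : ℝ := -μ with ht
  have ht0 : 0 < t := by linarith [hμ1.2]
  have ht1 : t < 1 := by linarith [hμ1.1]
  set Ψ : E → E := fun y => (a ∘ N) y + t • y with hΨ
  have hΨd : HasStrictFDerivAt Ψ (B + t • ContinuousLinearMap.id ℝ E) e₀ :=
    hG.add ((hasStrictFDerivAt_id e₀).const_smul t)
  have hinj : Function.Injective (B + t • ContinuousLinearMap.id ℝ E) := by
    rw [injective_iff_map_eq_zero]
    intro x hx
    by_contra hx0
    apply hμ2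
    refine Module.End.hasEigenvalue_of_hasEigenvector (x := x) ⟨?_, hx0⟩
    rw [Module.End.mem_eigenspace_iff]
    have h1 : B x + t • x = 0 := by simpa using hx
    have h2 : B x = μ • x := by
      rw [ht, neg_smul] at h1
      exact add_neg_eq_zero.1 h1
    exact h2
  have hsurj : (B + t • ContinuousLinearMap.id ℝ E).range = ⊤ := by
    have h := (LinearMap.injective_iff_surjective
      (f := ((B + t • ContinuousLinearMap.id ℝ E : E →L[ℝ] E) : E →ₗ[ℝ] E))).1 hinj
    exact LinearMap.range_eq_top.2 h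
  have hmap := hΨd.map_nhds_eq_of_surj hsurj
  have hV : {y : E | y ≠ 0 ∧ ‖y‖ < t⁻¹} ∈ 𝓝 e₀ := by
    apply IsOpen.mem_nhds
    · exact isOpen_ne.inter (isOpen_lt continuous_norm continuous_const)
    · refine ⟨hne, ?_⟩
      rw [he₀]
      exact (one_lt_inv₀ ht0).2 ht1
  have hsub : Ψ '' {y : E | y ≠ 0 ∧ ‖y‖ < t⁻¹} ⊆ K := by
    rintro _ ⟨y, ⟨hy0, hy1⟩, rfl⟩
    have hypos : 0 < ‖y‖ := norm_pos_iff.2 hy0
    have hNy : ‖N y‖ = 1 := by
      simp only [hN]
      rw [norm_smul, norm_inv, norm_norm]; exact inv_mul_cancel₀ hypos.ne'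
    have hle : t * ‖y‖ ≤ 1 := by
      have h3 := mul_lt_mul_of_pos_left hy1 ht0
      rw [mul_inv_cancel₀ ht0.ne'] at h3
      exact h3.le
    have h := hK (N y) hNy (t * ‖y‖) (by positivity) hle
    have h2 : (t * ‖y‖) • N y = t • y := by
      simp only [hN]
      rw [smul_smul, mul_assoc, mul_inv_cancel₀ hypos.ne', mul_one]
    rw [h2] at h
    exact h
  have hmem : K ∈ 𝓝 (Ψ e₀) := by
    rw [← hmap]
    exact Filter.mem_of_superset (Filter.image_mem_map hV) hsub
  exact ⟨Ψ e₀, mem_interior_iff_mem_nhds.2 hmem⟩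

end Vale.Agent.Lib.P127
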